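import Vale.Agent.P211.HK.LocSys
import Vale.Agent.P267.H469.Del2
import Vale.Agent.P267.H399.Calc
import Mathlib.MeasureTheory.Integral.CurveIntegral.Poincare
import Mathlib.Analysis.Calculus.ContDiff.FTaylorSeries

/-! P290 / H437, package SC-EXACT, part 2: on a simply connected complex surface closed one-forms are
exact, in the language of `P267.H399.Defs` (`OneF`). -/

set_option linter.unusedVariables false
set_option linter.unusedSectionVars false

open scoped Manifold ContDiff ComplexConjugate Topology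
open Set Filter

noncomputable section

namespace Vale.Agent.P290.H437

open Vale.Agent.P267 Vale.Agent.P267.FL Vale.Agent.P211.HK

/-! ### covectors and their Wirtinger components -/

/-- the real linear map `v ↦ ∑ (c_i v_i + a_i conj v_i)` -/
def cov (c a : Fin 2 → ℂ) : C2 →L[ℝ] ℂ :=
  ∑ i, ((c i) • ((ContinuousLinearMap.proj (R := ℂ) (φ := fun _ : Fin 2 => ℂ) i).restrictScalars ℝ) +
    (a i) • ((Complex.conjCLE : ℂ →L[ℝ] ℂ).comp
      ((ContinuousLinearMap.proj (R := ℂ) (φ := fun _ : Fin 2 => ℂ) i).restrictScalars ℝ)))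

theorem cov_apply (c a : Fin 2 → ℂ) (v : C2) : cov c a v = ∑ i, (c i * v i + a i * conj (v i)) := by
  simp [cov, Fin.sum_univ_two]

/-- the differential in terms of the Wirtinger derivatives -/
theorem fderiv_eq_cov (f : C2 → ℂ) (z : C2) :
    fderiv ℝ f z = cov (fun i => dz i f z) (fun i => dzb i f z) := by
  ext v
  rw [fderiv_eq_wirt, cov_apply]
  refine Finset.sum_congr rfl fun i _ => ?_
  rw [smul_eq_mul, smul_eq_mul, mul_comm, mul_comm (conj (v i))]

theorem dz_of_cov {f : C2 → ℂ} {z : C2} {c a : Fin 2 → ℂ} (h : fderiv ℝ f z = cov c a)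
    (i : Fin 2) : dz i f z = c i := by
  unfold dz
  rw [h, cov_apply, cov_apply]
  have hI : Complex.I * Complex.I = -1 := Complex.I_mul_I
  fin_cases i
  · simp [Fin.sum_univ_two]
    linear_combination (-1 / 2 * c 0 + 1 / 2 * a 0) * hI
  · simp [Fin.sum_univ_two]
    linear_combination (-1 / 2 * c 1 + 1 / 2 * a 1) * hI

theorem dzb_of_cov {f : C2 → ℂ} {z : C2} {c a : Fin 2 → ℂ} (h : fderiv ℝ f z = cov c a)
    (i : Fin 2) : dzb i f z = a i := by
  unfold dzb
  rw [h, cov_apply, cov_apply]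
  have hI : Complex.I * Complex.I = -1 := Complex.I_mul_I
  fin_cases i
  · simp [Fin.sum_univ_two]
    linear_combination (1 / 2 * c 0 - 1 / 2 * a 0) * hI
  · simp [Fin.sum_univ_two]
    linear_combination (1 / 2 * c 1 - 1 / 2 * a 1) * hI

section

variable {X : Type*} [TopologicalSpace X] [ChartedSpace C2 X] [IsManifold 𝓘(ℂ, C2) ω X]

/-- the one-form `A` in the chart `e` -/
def covL (e : Ch X) (A : OneF X) (z : C2) : C2 →L[ℝ] ℂ := cov (loc10 e A.f10 z) (loc1 0 e A.f01 z)

theorem comp_symm_eq (e : Ch X) (s : X → ℂ) : (fun z => s (e.symm z)) = loc0 0 e s := by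
  funext z
  simp [loc0]

/-- transfer of smoothness near a point between charts -/
theorem contDiffAt_chart {n : WithTop ℕ∞} {s : X → ℂ} {e e' : Ch X} (he : e ∈ atlas C2 X)
    (he' : e' ∈ atlas C2 X) {q : X} (hq : q ∈ e.source) (hq' : q ∈ e'.source)
    (h : ContDiffAt ℝ n (fun z => s (e'.symm z)) (e' q)) :
    ContDiffAt ℝ n (fun z => s (e.symm z)) (e q) := by
  rw [comp_symm_eq] at h ⊢
  exact loc0_contDiffAt_change he he' hq hq' h

theorem dzb_chart {s : X → ℂ} {e : Ch X} (he : e ∈ atlas C2 X) {q : X} (hq : q ∈ e.source)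
    (h : DifferentiableAt ℝ (fun z => s (e.symm z)) (e q)) (i : Fin 2) :
    dzb i (fun z => s (e.symm z)) (e q) = loc1 0 e (dbar0 0 s) (e q) i := by
  rw [comp_symm_eq] at h ⊢
  exact (loc1_dbar0 he (e.map_source hq) h i).symm

theorem dz_chart {s : X → ℂ} {e : Ch X} (he : e ∈ atlas C2 X) {q : X} (hq : q ∈ e.source)
    (h : DifferentiableAt ℝ (fun z => s (e.symm z)) (e q)) (i : Fin 2) :
    dz i (fun z => s (e.symm z)) (e q) = loc10 e (del0 s) (e q) i := by
  have h1 : DifferentiableAt ℝ (fun z => (H469.cj0 s) (e.symm z)) (e q) := differentiableAt_conj h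
  have h2 := dzb_chart he hq h1 i
  have h3 : dzb i (fun z => (H469.cj0 s) (e.symm z)) (e q) =
      conj (dz i (fun z => s (e.symm z)) (e q)) := dzb_conj h i
  rw [h3, H469.dbar0_cj, H469.loc1_cj1] at h2
  exact (starRingEnd ℂ).injective h2

/-- the value of a one-form is determined by its components in one chart -/
theorem eq_of_loc1 {e : Ch X} (he : e ∈ atlas C2 X) {q : X} (hq : q ∈ e.source)
    {a b : X → Fin 2 → ℂ} (h : ∀ i, loc1 0 e a (e q) i = loc1 0 e b (e q) i) : a q = b q := by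
  have h1 := loc1_chartAt (κ := 0) a q
  have h2 := loc1_chartAt (κ := 0) b q
  rw [← h1, ← h2]
  funext i
  rw [loc1_change (chart_mem_atlas C2 q) he (mem_chart_source C2 q) hq,
    loc1_change (chart_mem_atlas C2 q) he (mem_chart_source C2 q) hq]
  simp only [h]

theorem eq_of_loc10 {e : Ch X} (he : e ∈ atlas C2 X) {q : X} (hq : q ∈ e.source)
    {a b : X → Fin 2 → ℂ} (h : ∀ i, loc10 e a (e q) i = loc10 e b (e q) i) : a q = b q := by
  have h1 : H469.cj1 a q = H469.cj1 b q := by
    refine eq_of_loc1 he hq fun i => ?_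
    rw [H469.loc1_cj1, H469.loc1_cj1, h]
  funext i
  exact (starRingEnd ℂ).injective (congrFun h1 i)

theorem loc10_congr_at {e : Ch X} {q : X} (hq : q ∈ e.source) {a b : X → Fin 2 → ℂ}
    (h : a q = b q) : loc10 e a (e q) = loc10 e b (e q) := by
  funext i
  unfold loc10
  rw [e.left_inv hq, h]

theorem loc1_congr_at {e : Ch X} {q : X} (hq : q ∈ e.source) {a b : X → Fin 2 → ℂ}
    (h : a q = b q) : loc1 0 e a (e q) = loc1 0 e b (e q) := by
  funext i
  unfold loc1
  rw [e.left_inv hq, h]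

/-! ### primitives -/

/-- near `p` the function `s` is smooth with `ds = A` -/
def PrimFL (A : OneF X) (s : X → ℂ) (p : X) : Prop :=
  ∀ᶠ q in 𝓝 p, ContDiffAt ℝ ∞ (fun z => s ((chartAt C2 q).symm z)) (chartAt C2 q q) ∧
    del0 s q = A.f10 q ∧ dbar0 0 s q = A.f01 q

/-- primitives in a chart -/
theorem prim_iff {A : OneF X} {s : X → ℂ} {e : Ch X} (he : e ∈ atlas C2 X) {q : X}
    (hq : q ∈ e.source) :
    (ContDiffAt ℝ ∞ (fun z => s ((chartAt C2 q).symm z)) (chartAt C2 q q) ∧
      del0 s q = A.f10 q ∧ dbar0 0 s q = A.f01 q) ↔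
    (ContDiffAt ℝ ∞ (fun z => s (e.symm z)) (e q) ∧
      fderiv ℝ (fun z => s (e.symm z)) (e q) = covL e A (e q)) := by
  constructor
  · rintro ⟨h1, h2, h3⟩
    have h4 := contDiffAt_chart he (chart_mem_atlas C2 q) hq (mem_chart_source C2 q) h1
    have h5 : DifferentiableAt ℝ (fun z => s (e.symm z)) (e q) := h4.differentiableAt (by simp)
    refine ⟨h4, ?_⟩
    rw [fderiv_eq_cov, covL]
    congr 1
    · funext i
      rw [dz_chart he hq h5, loc10_congr_at hq h2]
    · funext i
      rw [dzb_chart he hq h5, loc1_congr_at hq h3]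
  · rintro ⟨h1, h2⟩
    have h4 := contDiffAt_chart (chart_mem_atlas C2 q) he (mem_chart_source C2 q) hq h1
    have h5 : DifferentiableAt ℝ (fun z => s (e.symm z)) (e q) := h1.differentiableAt (by simp)
    refine ⟨h4, eq_of_loc10 he hq fun i => ?_, eq_of_loc1 he hq fun i => ?_⟩
    · rw [← dz_chart he hq h5, dz_of_cov h2]
    · rw [← dzb_chart he hq h5, dzb_of_cov h2]

theorem PrimFL.eventually {A : OneF X} {s : X → ℂ} {p : X} (h : PrimFL A s p) :
    ∀ᶠ q in 𝓝 p, PrimFL A s q := eventually_eventually_nhds.2 h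

/-- two primitives differ by a local constant -/
theorem PrimFL.eventually_sub_eq {A : OneF X} {s s' : X → ℂ} {p : X} (h : PrimFL A s p)
    (h' : PrimFL A s' p) : ∀ᶠ q in 𝓝 p, s q - s' q = s p - s' p := by
  set e := chartAt C2 p with he0
  have he : e ∈ atlas C2 X := chart_mem_atlas C2 p
  have hp : p ∈ e.source := mem_chart_source C2 p
  have ht : Tendsto e.symm (𝓝 (e p)) (𝓝 p) := by
    have := e.symm.continuousAt (e.map_source hp)
    rwa [ContinuousAt, e.left_inv hp] at this
  have h1 : ∀ᶠ z in 𝓝 (e p), z ∈ e.target ∧ HasFDerivAt (fun z => s (e.symm z) - s' (e.symm z))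
      (0 : C2 →L[ℝ] ℂ) z := by
    filter_upwards [ht.eventually h, ht.eventually h', e.open_target.mem_nhds (e.map_source hp)]
      with z hz hz' hzt
    refine ⟨hzt, ?_⟩
    obtain ⟨a1, a2⟩ := (prim_iff he (e.map_target hzt)).1 hz
    obtain ⟨b1, b2⟩ := (prim_iff he (e.map_target hzt)).1 hz'
    rw [e.right_inv hzt] at a1 a2 b1 b2
    have a3 := (a1.differentiableAt (by simp)).hasFDerivAt
    have b3 := (b1.differentiableAt (by simp)).hasFDerivAt
    rw [a2] at a3
    rw [b2] at b3
    have := a3.sub b3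
    rwa [sub_self] at this
  obtain ⟨r, hr, hball⟩ := Metric.eventually_nhds_iff_ball.1 h1
  have h2 : ∀ z ∈ Metric.ball (e p) r, s (e.symm z) - s' (e.symm z) =
      s (e.symm (e p)) - s' (e.symm (e p)) := by
    intro z hz
    refine (convex_ball (e p) r).is_const_of_fderivWithin_eq_zero (𝕜 := ℝ)
      (f := fun z => s (e.symm z) - s' (e.symm z))
      (fun w hw => (hball w hw).2.differentiableAt.differentiableWithinAt) (fun w hw => ?_) hz
      (Metric.mem_ball_self hr)
    rw [fderivWithin_of_isOpen Metric.isOpen_ball hw, (hball w hw).2.fderiv]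
  filter_upwards [(e.continuousAt hp).eventually (Metric.ball_mem_nhds _ hr),
    e.open_source.mem_nhds hp] with q hq hq'
  have := h2 (e q) hq
  rwa [e.left_inv hq', e.left_inv hp] at this

theorem PrimFL.congr {A : OneF X} {s s' : X → ℂ} {p : X} (h : PrimFL A s p)
    (he : s =ᶠ[𝓝 p] s') : PrimFL A s' p := by
  filter_upwards [h, he.eventually_nhds] with q hq heq
  have h1 := mem_chart_source C2 q
  have ht : Tendsto (chartAt C2 q).symm (𝓝 (chartAt C2 q q)) (𝓝 q) := by
    have := (chartAt C2 q).symm.continuousAt ((chartAt C2 q).map_source h1)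
    rwa [ContinuousAt, (chartAt C2 q).left_inv h1] at this
  have h2 : (fun z => s ((chartAt C2 q).symm z)) =ᶠ[𝓝 (chartAt C2 q q)]
      fun z => s' ((chartAt C2 q).symm z) := ht.eventually heq
  refine ⟨hq.1.congr_of_eventuallyEq h2.symm, ?_, ?_⟩
  · rw [← hq.2.1]
    funext i
    exact (dz_congr h2 i).symm
  · rw [← hq.2.2]
    funext i
    unfold dbar0
    rw [← comp_symm_eq, ← comp_symm_eq]
    exact (dzb_congr h2 i).symm

theorem PrimFL.add_const {A : OneF X} {s : X → ℂ} {p : X} (h : PrimFL A s p) (c : ℂ) :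
    PrimFL A (fun q => s q + c) p := by
  filter_upwards [h] with q hq
  have hs := mem_chart_source C2 q
  have ha := chart_mem_atlas C2 q
  obtain ⟨h1, h2⟩ := (prim_iff ha hs).1 hq
  refine (prim_iff (A := A) (s := fun q => s q + c) ha hs).2 ⟨h1.add contDiffAt_const, ?_⟩
  rw [← h2]
  exact fderiv_add_const (f := fun z => s ((chartAt C2 q).symm z)) c

/-- closed one-forms: the three components of `dA = 0` -/
structure ClosedF (A : OneF X) : Prop where
  smooth : A.Smooth
  d20 : del10 A.f10 = 0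
  d11 : del1 A.f01 + dbar10 A.f10 = 0
  d02 : dbar1 0 A.f01 = 0

/-- the Poincare lemma -/
theorem exists_primFL {A : OneF X} (hA : ClosedF A) (p : X) : ∃ s, PrimFL A s p := by
  set e := chartAt C2 p with he0
  have he : e ∈ atlas C2 X := chart_mem_atlas C2 p
  have hp : p ∈ e.source := mem_chart_source C2 p
  have hα : ∀ i, ContDiffOn ℝ ∞ (fun z => loc10 e A.f10 z i) e.target :=
    fun i => contDiffOn_pi.1 (hA.smooth.s10 e he) i
  have hβ : ∀ i, ContDiffOn ℝ ∞ (fun z => loc1 0 e A.f01 z i) e.target :=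
    fun i => contDiffOn_pi.1 (hA.smooth.s01 e he) i
  have hr10 : Reg10 1 A.f10 := H469.r10mono hA.smooth.s10 H469.one_le_infty
  have hr1 : Reg1 1 0 A.f01 := H469.r1mono hA.smooth.s01 H469.one_le_infty
  -- the equations in the chart
  have e20 : ∀ z ∈ e.target, dz 0 (fun v => loc10 e A.f10 v 1) z =
      dz 1 (fun v => loc10 e A.f10 v 0) z := by
    intro z hz
    have h := H469.del10_law hr10 he hz
    rw [hA.d20] at h
    have h0 : loc0 1 e (0 : X → ℂ) z = 0 := by simp [loc0]
    rw [h0] at h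
    exact (sub_eq_zero.1 h.symm)
  have e02 : ∀ z ∈ e.target, dzb 0 (fun v => loc1 0 e A.f01 v 1) z =
      dzb 1 (fun v => loc1 0 e A.f01 v 0) z := by
    intro z hz
    have h := H469.dbar1_law hr1 he hz
    rw [hA.d02] at h
    have h0 : loc2 0 e (0 : X → ℂ) z = 0 := by simp [loc2]
    rw [h0] at h
    exact (sub_eq_zero.1 h.symm)
  have e11 : ∀ z ∈ e.target, ∀ i j, dz i (fun v => loc1 0 e A.f01 v j) z =
      dzb j (fun v => loc10 e A.f10 v i) z := by
    intro z hz i j
    have h := H469.del1_law hr1 he hz i j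
    have h' := H469.dbar10_law hr10 he hz i j
    have h0 : loc11 e (del1 A.f01 + dbar10 A.f10) z i j = 0 := by
      rw [hA.d11]
      simp [loc11]
    rw [H469.loc11_add, h, h'] at h0
    exact (eq_neg_of_add_eq_zero_left h0).trans (neg_neg _)
  -- the form in the chart
  obtain ⟨r, hr, hball⟩ := Metric.isOpen_iff.1 e.open_target (e p) (e.map_source hp)
  have hcov : ∀ (z : C2), covL e A z = ∑ i, ((loc10 e A.f10 z i) •
      ((ContinuousLinearMap.proj (R := ℂ) (φ := fun _ : Fin 2 => ℂ) i).restrictScalars ℝ) +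
      (loc1 0 e A.f01 z i) • ((Complex.conjCLE : ℂ →L[ℝ] ℂ).comp
        ((ContinuousLinearMap.proj (R := ℂ) (φ := fun _ : Fin 2 => ℂ) i).restrictScalars ℝ))) :=
    fun z => rfl
  have hsm : ContDiffOn ℝ ∞ (covL e A) (Metric.ball (e p) r) := by
    have : covL e A = fun z => ∑ i, ((loc10 e A.f10 z i) •
      ((ContinuousLinearMap.proj (R := ℂ) (φ := fun _ : Fin 2 => ℂ) i).restrictScalars ℝ) +
      (loc1 0 e A.f01 z i) • ((Complex.conjCLE : ℂ →L[ℝ] ℂ).comp
        ((ContinuousLinearMap.proj (R := ℂ) (φ := fun _ : Fin 2 => ℂ) i).restrictScalars ℝ))) :=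
      funext hcov
    rw [this]
    refine ContDiffOn.sum fun i _ => ?_
    exact (((hα i).mono hball).smul contDiffOn_const).add (((hβ i).mono hball).smul contDiffOn_const)
  have hda : ∀ z ∈ Metric.ball (e p) r, ∀ i, DifferentiableAt ℝ (fun v => loc10 e A.f10 v i) z :=
    fun z hz i => ((hα i).contDiffAt (e.open_target.mem_nhds (hball hz))).differentiableAt (by simp)
  have hdb : ∀ z ∈ Metric.ball (e p) r, ∀ i, DifferentiableAt ℝ (fun v => loc1 0 e A.f01 v i) z :=
    fun z hz i => ((hβ i).contDiffAt (e.open_target.mem_nhds (hball hz))).differentiableAt (by simp)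
  have hfd : ∀ z ∈ Metric.ball (e p) r, ∀ v w, fderiv ℝ (covL e A) z v w =
      ∑ i, (fderiv ℝ (fun y => loc10 e A.f10 y i) z v * w i +
        fderiv ℝ (fun y => loc1 0 e A.f01 y i) z v * conj (w i)) := by
    intro z hz v w
    have h1 : DifferentiableAt ℝ (covL e A) z :=
      (hsm.contDiffAt (Metric.isOpen_ball.mem_nhds hz)).differentiableAt (by simp)
    have h2 : fderiv ℝ (fun y => covL e A y w) z v = fderiv ℝ (covL e A) z v w := by
      rw [fderiv_clm_apply h1 (differentiableAt_const w)]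
      simp
    rw [← h2]
    have h3 : (fun y => covL e A y w) = fun y => ∑ i, (loc10 e A.f10 y i * w i +
        loc1 0 e A.f01 y i * conj (w i)) := by
      funext y
      exact cov_apply _ _ _
    rw [h3]
    have h4 : ∀ i ∈ (Finset.univ : Finset (Fin 2)), HasFDerivAt (fun y => loc10 e A.f10 y i * w i +
        loc1 0 e A.f01 y i * conj (w i)) ((w i) • fderiv ℝ (fun y => loc10 e A.f10 y i) z +
        (conj (w i)) • fderiv ℝ (fun y => loc1 0 e A.f01 y i) z) z := fun i _ =>
      ((hda z hz i).hasFDerivAt.mul_const (w i)).add ((hdb z hz i).hasFDerivAt.mul_const _)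
    rw [(HasFDerivAt.fun_sum h4).fderiv]
    simp only [sum_apply, add_apply,
      smul_apply, smul_eq_mul]
    refine Finset.sum_congr rfl fun i _ => ?_
    ring
  have hsymm : ∀ z ∈ Metric.ball (e p) r, ∀ v w, fderiv ℝ (covL e A) z v w =
      fderiv ℝ (covL e A) z w v := by
    intro z hz v w
    rw [hfd z hz, hfd z hz]
    simp only [fderiv_eq_cov, cov_apply, Fin.sum_univ_two]
    have hzt := hball hz
    rw [e20 z hzt, e02 z hzt, e11 z hzt 0 0, e11 z hzt 0 1, e11 z hzt 1 0, e11 z hzt 1 1]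
    ring
  obtain ⟨f, hf⟩ := (convex_ball (e p) r).exists_forall_hasFDerivAt_of_fderiv_symmetric
    Metric.isOpen_ball (hsm.differentiableOn (by simp)) hsymm
  have hfs : ContDiffOn ℝ ∞ f (Metric.ball (e p) r) := by
    have h1 : ∀ z ∈ Metric.ball (e p) r, fderiv ℝ f z = covL e A z := fun z hz => (hf z hz).fderiv
    rw [contDiffOn_infty_iff_fderiv_of_isOpen Metric.isOpen_ball]
    refine ⟨fun z hz => (hf z hz).differentiableAt.differentiableWithinAt, ?_⟩
    exact hsm.congr h1
  refine ⟨fun q => f (e q), ?_⟩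
  have h1 : ∀ᶠ q in 𝓝 p, e q ∈ Metric.ball (e p) r :=
    (e.continuousAt hp).eventually (Metric.ball_mem_nhds _ hr)
  filter_upwards [h1, e.open_source.mem_nhds hp] with q hq hq'
  refine (prim_iff (A := A) (s := fun q => f (e q)) he hq').2 ?_
  have h2 : (fun z => f (e (e.symm z))) =ᶠ[𝓝 (e q)] f := by
    filter_upwards [e.open_target.mem_nhds (e.map_source hq')] with z hz
    rw [e.right_inv hz]
  refine ⟨(hfs.contDiffAt (Metric.isOpen_ball.mem_nhds hq)).congr_of_eventuallyEq h2, ?_⟩
  rw [h2.fderiv_eq, (hf (e q) hq).fderiv]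

theorem locSys_primFL {A : OneF X} (hA : ClosedF A) :
    LocSys (X := X) (F := fun _ => ℂ) (fun p s => PrimFL A s p) where
  opn p s hs := hs.eventually
  uniq p s s' hs hs' he := by
    filter_upwards [hs.eventually_sub_eq hs'] with q hq
    rw [he, sub_self, sub_eq_zero] at hq
    exact hq
  clo p s s' hs hs' hf := by
    obtain ⟨q, hq, hq'⟩ := (hf.and_eventually (hs.eventually_sub_eq hs')).exists
    rw [hq, sub_self] at hq'
    exact (sub_eq_zero.1 hq'.symm)
  loc p s s' hs he := hs.congr he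
  ext p := by
    obtain ⟨u, hu⟩ := exists_primFL hA p
    refine ⟨{y | PrimFL A u y}, hu.eventually, fun q hq v => ?_⟩
    refine ⟨fun y => u y + (v - u q), by simp, fun q' hq' => ?_⟩
    exact PrimFL.add_const hq' _

/-- **On a simply connected complex surface every closed one-form is exact.** -/
theorem exists_dF0 [SimplyConnectedSpace X] {A : OneF X} (hA : ClosedF A) :
    ∃ u : X → ℂ, Reg0 ∞ 0 u ∧ dF0 u = A := by
  have : LocallyPathConnectedSpace X := ChartedSpace.locallyPathConnectedSpace C2 X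
  obtain ⟨p⟩ := (inferInstance : Nonempty X)
  obtain ⟨s, ⟨-, hs⟩, -⟩ := (locSys_primFL hA).existsUnique p 0
  refine ⟨s, ?_, ?_⟩
  · rw [reg0_iff]
    intro x
    rw [← comp_symm_eq]
    exact (hs x).self_of_nhds.1
  · have h1 : del0 s = A.f10 := funext fun x => (hs x).self_of_nhds.2.1
    have h2 : dbar0 0 s = A.f01 := funext fun x => (hs x).self_of_nhds.2.2
    rw [dF0, h1, h2]

/-- a primitive of a real closed one-form can be chosen real -/
theorem exists_dF0_real [SimplyConnectedSpace X] {A : OneF X} (hA : ClosedF A)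
    (hr : ∀ x i, A.f10 x i = conj (A.f01 x i)) :
    ∃ u : X → ℝ, Reg0 ∞ 0 (fun x => (u x : ℂ)) ∧ dF0 (fun x => (u x : ℂ)) = A := by
  obtain ⟨u, hu, hd⟩ := exists_dF0 hA
  have h10 : del0 u = A.f10 := congrArg OneF.f10 hd
  have h01 : dbar0 0 u = A.f01 := congrArg OneF.f01 hd
  have hcj : Reg0 ∞ 0 (H469.cj0 u) := H469.r0cj hu
  -- `u - conj u` has zero differential, we take the real part
  have hre : (fun x => (((u x).re : ℝ) : ℂ)) = fun x => (1 / 2 : ℂ) * u x + (1 / 2 : ℂ) * H469.cj0 u x := by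
    funext x
    have := Complex.re_eq_add_conj (u x)
    simp only [H469.cj0]
    rw [this]
    ring
  have hsm : ∀ (x : X), DifferentiableAt ℝ (fun z => u ((chartAt C2 x).symm z)) (chartAt C2 x x) := by
    intro x
    rw [comp_symm_eq]
    exact (hu.contDiffAt (chart_mem_atlas C2 x) ((chartAt C2 x).map_source
      (mem_chart_source C2 x))).differentiableAt (by simp)
  have hsm' : ∀ (x : X), DifferentiableAt ℝ (fun z => (H469.cj0 u) ((chartAt C2 x).symm z))
      (chartAt C2 x x) := fun x => differentiableAt_conj (hsm x)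
  have hd0 : ∀ x i, del0 (fun x => (1 / 2 : ℂ) * u x + (1 / 2 : ℂ) * H469.cj0 u x) x i =
      (1 / 2 : ℂ) * del0 u x i + (1 / 2 : ℂ) * del0 (H469.cj0 u) x i := by
    intro x i
    unfold del0
    rw [dz_add ((hsm x).const_mul _) ((hsm' x).const_mul _)]
    have e1 := dz_const_smul (1 / 2 : ℂ) (hsm x) i
    have e2 := dz_const_smul (1 / 2 : ℂ) (hsm' x) i
    simp only [smul_eq_mul] at e1 e2
    rw [e1, e2]
  have hb0 : ∀ x i, dbar0 0 (fun x => (1 / 2 : ℂ) * u x + (1 / 2 : ℂ) * H469.cj0 u x) x i =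
      (1 / 2 : ℂ) * dbar0 0 u x i + (1 / 2 : ℂ) * dbar0 0 (H469.cj0 u) x i := by
    intro x i
    unfold dbar0
    rw [← comp_symm_eq, ← comp_symm_eq, ← comp_symm_eq,
      dzb_add ((hsm x).const_mul _) ((hsm' x).const_mul _)]
    have e1 := dzb_const_smul (1 / 2 : ℂ) (hsm x) i
    have e2 := dzb_const_smul (1 / 2 : ℂ) (hsm' x) i
    simp only [smul_eq_mul] at e1 e2
    rw [e1, e2]
  refine ⟨fun x => (u x).re, ?_, ?_⟩
  · rw [hre]
    intro e he
    have h1 := hu e he
    have h2 := hcj e he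
    rw [← comp_symm_eq] at h1 h2 ⊢
    exact (contDiffOn_const.mul h1).add (contDiffOn_const.mul h2)
  · rw [hre]
    have e10 : del0 (fun x => (1 / 2 : ℂ) * u x + (1 / 2 : ℂ) * H469.cj0 u x) = A.f10 := by
      funext x i
      rw [hd0, H469.del0_cj, h01, h10]
      change 1 / 2 * A.f10 x i + 1 / 2 * conj (A.f01 x i) = A.f10 x i
      rw [← hr]
      ring
    have e01 : dbar0 0 (fun x => (1 / 2 : ℂ) * u x + (1 / 2 : ℂ) * H469.cj0 u x) = A.f01 := by
      funext x i
      rw [hb0, H469.dbar0_cj, h01, h10]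
      change 1 / 2 * A.f01 x i + 1 / 2 * conj (A.f10 x i) = A.f01 x i
      rw [hr, Complex.conj_conj]
      ring
    rw [dF0, e10, e01]

end

end Vale.Agent.P290.H437
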